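import Vale.Agent.P233.H249.If6
import Vale.Agent.P233.H134.C4b

/-! P233, block C6: `RicFlow.fin` from the integrated inequality up to the end point
(`PC.Pc6_fin` of `H249/If6`). -/

set_option linter.all false

open MeasureTheory Filter Topology Set
open scoped ENNReal NNReal InnerProductSpace

universe u

namespace Vale.Agent.P233.H788

open Vale.Agent.P233 Vale.Agent.P233.PC
open Vale.Agent.P233.PA (en OutA PotLim)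

section lin

variable {M : Type u} [MeasurableSpace M] {m : Measure M} {C : Calc m}

/-- `wHc` is affine in the weight -/
theorem wHc_lin (hC : IsGamma C) {K : ℝ} (hB : C.BEi K) {F h w : M →ₘ[m] ℝ} (hF : F ∈ C.W)
    (hh : h ∈ C.TestI) (hw : w ∈ C.A) (N : ℝ) :
    C.wHc F h (1 + N • w) = C.wHc F h 1 + N * C.wH F h w := by
  have hD := hC.toIsDir
  have hhW := hC.tW hh.1
  have hFh : MemLp (C.Γ F h) 2 m := by
    rw [hC.symm _ hF _ hhW]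
    exact hD.Γ_mem2 hhW (hC.test_Γ_top hh.1) hF
  have hlap : MemLp (C.lap h) 2 m := hC.memLp _ (hC.test_lap_mem hh.1)
  have hhw : MemLp (C.Γ h w) 2 m := hD.Γ_mem2 hhW (hC.test_Γ_top hh.1) hw.1
  have a1 : MemLp (C.Γ F h * C.lap h : M →ₘ[m] ℝ) 1 m := mem_mul_22 hFh hlap
  have a2 : MemLp (C.Γ F h * (w * C.lap h + C.Γ h w) : M →ₘ[m] ℝ) 1 m :=
    mem_mul_22 hFh (mem_add (mem_mul_top hw.2 hlap) hhw)
  have a3 : MemLp (C.Γ F (C.Γ h h)) 1 m := hD.Γ_mem1 hF (hC.Γ_mem hB hh.1 hh.1).1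
  have a4 : MemLp (w * C.Γ F (C.Γ h h) : M →ₘ[m] ℝ) 1 m := mem_mul_top hw.2 a3
  have e0 : (1 + N • w - 1 : M →ₘ[m] ℝ) = N • w := by abel
  have e00 : (1 - 1 : M →ₘ[m] ℝ) = (0 : ℝ) • w := by rw [sub_self, zero_smul]
  have e1 : C.Γ h (N • w) = N • C.Γ h w := by
    rw [hC.symm _ hhW _ (hC.smul_mem _ _ hw.1), hC.smul_left _ _ hw.1 _ hhW,
      hC.symm _ hw.1 _ hhW]
  have e2 : C.Γ h ((0 : ℝ) • w) = 0 := by
    rw [hC.symm _ hhW _ (hC.smul_mem _ _ hw.1), hC.smul_left _ _ hw.1 _ hhW, zero_smul]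
  have f1 : C.Γ F h * ((1 + N • w) * C.lap h + N • C.Γ h w)
      = C.Γ F h * C.lap h + N • (C.Γ F h * (w * C.lap h + C.Γ h w)) := by
    rw [← smul_one_mul N w, ← smul_one_mul N (C.Γ h w), ← smul_one_mul N (C.Γ F h * _)]
    ring
  have f2 : (1 + N • w) * C.Γ F (C.Γ h h) = C.Γ F (C.Γ h h) + N • (w * C.Γ F (C.Γ h h)) := by
    rw [← smul_one_mul N w, ← smul_one_mul N (w * _)]
    ring
  unfold Calc.wHc Calc.wH
  rw [e0, e00, e1, e2, f1, f2, I_add a1 (mem_smul N a2), I_smul, I_add a3 (mem_smul N a4), I_smul,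
    one_mul, add_zero, one_mul]
  ring

end lin

section

variable {M : Type u} [MetricSpace M] [CompleteSpace M] [SecondCountableTopology M]
  [MeasurableSpace M] [BorelSpace M] {m : Measure M} {K N κ : ℝ} {p : M} {s₀ C₀ : ℝ}
variable {E : Type} [NormedAddCommGroup E] [InnerProductSpace ℝ E]
  {Gr : (M →ₘ[m] ℝ) → M → E} {HO : (M →ₘ[m] ℝ) → M → E →L[ℝ] E} {Y : ℝ → M → M}
  {Hs : (M →ₘ[m] ℝ) → ℝ → M → E} {h : M →ₘ[m] ℝ}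

/-- pointwise bound of the right hand side -/
theorem bf6_le (t : ℝ) (x : M) : bf6 m Gr HO Hs κ p s₀ C₀ Y h t x
    ≤ ‖wf6 m Gr HO h p s₀ C₀ t (Y t x)‖ ^ 2
      + |κ| * (‖Gr h (Y t x)‖ ^ 2 * ‖vf6 m Gr p s₀ C₀ t (Y t x)‖ ^ 2) := by
  unfold bf6 df6
  set a := Hs h t (Y t x)
  set b := wf6 m Gr HO h p s₀ C₀ t (Y t x)
  set c := Gr h (Y t x)
  set d := vf6 m Gr p s₀ C₀ t (Y t x)
  have h1 : 2 * ⟪a, b⟫_ℝ ≤ ‖a‖ ^ 2 + ‖b‖ ^ 2 := by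
    have := norm_sub_sq_real a b
    nlinarith [sq_nonneg ‖a - b‖]
  have h2 : ⟪c, d⟫_ℝ ^ 2 ≤ ‖c‖ ^ 2 * ‖d‖ ^ 2 := by
    have := abs_real_inner_le_norm c d
    rw [← sq_abs, ← mul_pow]
    exact pow_le_pow_left₀ (abs_nonneg _) this 2
  have h3 : -(κ * (‖c‖ ^ 2 * ‖d‖ ^ 2 - ⟪c, d⟫_ℝ ^ 2)) ≤ |κ| * (‖c‖ ^ 2 * ‖d‖ ^ 2) := by
    have h4 : 0 ≤ ‖c‖ ^ 2 * ‖d‖ ^ 2 - ⟪c, d⟫_ℝ ^ 2 := sub_nonneg.2 h2
    have h5 : ‖c‖ ^ 2 * ‖d‖ ^ 2 - ⟪c, d⟫_ℝ ^ 2 ≤ ‖c‖ ^ 2 * ‖d‖ ^ 2 := by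
      linarith [sq_nonneg ⟪c, d⟫_ℝ]
    calc -(κ * (‖c‖ ^ 2 * ‖d‖ ^ 2 - ⟪c, d⟫_ℝ ^ 2)) = (-κ) * (‖c‖ ^ 2 * ‖d‖ ^ 2 - ⟪c, d⟫_ℝ ^ 2) := by
          ring
      _ ≤ |κ| * (‖c‖ ^ 2 * ‖d‖ ^ 2 - ⟪c, d⟫_ℝ ^ 2) :=
          mul_le_mul_of_nonneg_right (neg_le_abs κ) h4
      _ ≤ |κ| * (‖c‖ ^ 2 * ‖d‖ ^ 2) := mul_le_mul_of_nonneg_left h5 (abs_nonneg κ)
  linarith

omit [CompleteSpace M] [SecondCountableTopology M] [BorelSpace M] in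
theorem cz6_le (hs : 0 < s₀) (hC : 0 < C₀) {t : ℝ} (h0 : 0 ≤ t) (h1 : t ≤ 1) (y : M) :
    0 ≤ cz6 p s₀ C₀ t y ∧ cz6 p s₀ C₀ t y ≤ r1 s₀ C₀ / s₀ := by
  have h2 : (0 : ℝ) ≤ r1 s₀ C₀ := Real.sqrt_nonneg _
  unfold cz6
  split_ifs with h
  · have h3 : dist p y ≤ r1 s₀ C₀ := by
      refine Real.le_sqrt_of_sq_le (h.le.trans ?_)
      nlinarith
    exact ⟨by positivity, div_le_div₀ h2 h3 hs (by linarith)⟩
  · exact ⟨le_rfl, by positivity⟩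

/-- the norm of the velocity and of `Hess h(v)` -/
theorem vw_le (hstd : Std m K N) (hs : 0 < s₀) (hC : 0 < C₀) (hG : IsGrad (sob m) Gr)
    {L : M → ℝ} (hL : ∀ᵐ x ∂m, ‖HO h x‖ ≤ L x) : ∀ᵐ y ∂m, ∀ t ∈ Icc (0 : ℝ) 1,
      ‖vf6 m Gr p s₀ C₀ t y‖ ^ 2 ≤ (r1 s₀ C₀ / s₀) ^ 2 ∧
      ‖wf6 m Gr HO h p s₀ C₀ t y‖ ^ 2 ≤ (r1 s₀ C₀ / s₀) ^ 2 * L y ^ 2 := by
  filter_upwards [hL, H134.Γ_dc_le (p := p) (s₀ := s₀) (C₀ := C₀) hstd,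
    hG.inner _ (H134.dc_mem (p := p) (s₀ := s₀) (C₀ := C₀) hstd) _
      (H134.dc_mem (p := p) (s₀ := s₀) (C₀ := C₀) hstd)] with y a1 a2 a3 t ht
  obtain ⟨c0, c1⟩ := cz6_le (p := p) hs hC ht.1 ht.2 y
  have g1 : ‖Gr (dc m p s₀ C₀) y‖ ≤ 1 := by
    rw [← a3, real_inner_self_eq_norm_sq] at a2
    nlinarith [norm_nonneg (Gr (dc m p s₀ C₀) y)]
  have r0 : 0 ≤ r1 s₀ C₀ / s₀ := c0.trans c1
  constructor
  · unfold vf6
    rw [norm_smul, Real.norm_of_nonneg c0]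
    refine pow_le_pow_left₀ (by positivity) ?_ 2
    calc cz6 p s₀ C₀ t y * ‖Gr (dc m p s₀ C₀) y‖ ≤ (r1 s₀ C₀ / s₀) * 1 :=
          mul_le_mul c1 g1 (norm_nonneg _) r0
      _ = _ := mul_one _
  · unfold wf6
    rw [norm_smul, Real.norm_of_nonneg c0, ← mul_pow]
    refine pow_le_pow_left₀ (by positivity) (mul_le_mul c1 ?_ (norm_nonneg _) r0) 2
    calc ‖HO h y (Gr (dc m p s₀ C₀) y)‖ ≤ ‖HO h y‖ * ‖Gr (dc m p s₀ C₀) y‖ :=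
          (HO h y).le_opNorm _
      _ ≤ L y * 1 := mul_le_mul a1 g1 (norm_nonneg _) ((norm_nonneg _).trans a1)
      _ = L y := mul_one _

variable {φ ρ : ℝ → M →ₘ[m] ℝ} {R : ℝ → ℝ → (M →ₘ[m] ℝ) → (M →ₘ[m] ℝ)}

/-- uniform bound of the weighted integrals of the right hand side for `t ≥ 1/2` -/
theorem bf6_bd (hstd : Std m K N) (hs : 0 < s₀) (hC : 0 < C₀) (hG : IsGrad (sob m) Gr)
    (hH : IsHess (sob m) Gr HO) (hLim : Lim m K N p s₀ C₀ φ ρ R) (hM : Maps ρ R Y)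
    (hh : h ∈ (sob m).Test) {w : M →ₘ[m] ℝ} {c : ℝ} (hc0 : 0 ≤ c)
    (hw : ∀ᵐ x ∂m, 0 ≤ w x ∧ w x ≤ c) :
    ∃ A : ℝ, ∀ t ∈ Icc (1 / 2 : ℝ) 1,
      Integrable (fun x => w x * bf6 m Gr HO Hs κ p s₀ C₀ Y h t x) m →
      ∫ x, w x * bf6 m Gr HO Hs κ p s₀ C₀ Y h t x ∂m ≤ A := by
  have hCg := H134.std_gamma hstd
  obtain ⟨cn, hn⟩ := hH.norm
  obtain ⟨L, hL2, hLb, -⟩ := hn h hh
  set r : ℝ := r1 s₀ C₀ / s₀ with hr
  have hr0 : 0 ≤ r := div_nonneg (Real.sqrt_nonneg _) hs.le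
  -- the classes of `L` and of `|∇h|`
  set Lc : M →ₘ[m] ℝ := AEEqFun.mk L hL2.1 with hLc
  have eL : ∀ᵐ x ∂m, Lc x = L x := AEEqFun.coeFn_mk _ _
  have hLc2 : MemLp Lc 2 m := hL2.ae_eq (eL.mono fun x hx => hx.symm)
  have hGm := hG.mem h (hCg.tW hh)
  set Gc : M →ₘ[m] ℝ := AEEqFun.mk (fun x => ‖Gr h x‖) hGm.1.norm with hGc
  have eG : ∀ᵐ x ∂m, Gc x = ‖Gr h x‖ := AEEqFun.coeFn_mk _ _
  have hGc2 : MemLp Gc 2 m := hGm.norm.ae_eq (eG.mono fun x hx => hx.symm)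
  have half : (0 : ℝ) < 1 / 2 := by norm_num
  refine ⟨c * (r ^ 2 * (cK K C₀ * (1 / 2 : ℝ) ^ (-N) * I (Lc ^ 2)))
    + c * (|κ| * (r ^ 2 * (cK K C₀ * (1 / 2 : ℝ) ^ (-N) * I (Gc ^ 2)))), fun t ht hi => ?_⟩
  have ht' : t ∈ Ioc (0 : ℝ) 1 := ⟨half.trans_le ht.1, ht.2⟩
  obtain ⟨i1, b1⟩ := H134.sq_flow hstd hLim hM hLc2 half ht
  obtain ⟨i2, b2⟩ := H134.sq_flow hstd hLim hM hGc2 half ht
  have hvw := H134.Maps.ae hM ht' (vw_le (Gr := Gr) (HO := HO) (h := h) (p := p) hstd hs hC hG hLb)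
  have eL' := H134.Maps.ae hM ht' eL
  have eG' := H134.Maps.ae hM ht' eG
  have j1 := (i1.const_mul (c * r ^ 2)).add (i2.const_mul (c * (|κ| * r ^ 2)))
  calc ∫ x, w x * bf6 m Gr HO Hs κ p s₀ C₀ Y h t x ∂m
      ≤ ∫ x, (c * r ^ 2 * Lc (Y t x) ^ 2 + c * (|κ| * r ^ 2) * Gc (Y t x) ^ 2) ∂m := by
        refine integral_mono_ae hi j1 ?_
        filter_upwards [hw, hvw, eL', eG'] with x a1 a2 a3 a4
        obtain ⟨a5, a6⟩ := a2 t ⟨ht'.1.le, ht'.2⟩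
        have a7 := bf6_le (m := m) (Gr := Gr) (HO := HO) (Hs := Hs) (κ := κ) (p := p) (s₀ := s₀)
          (C₀ := C₀) (Y := Y) (h := h) t x
        show w x * bf6 m Gr HO Hs κ p s₀ C₀ Y h t x
          ≤ c * r ^ 2 * Lc (Y t x) ^ 2 + c * (|κ| * r ^ 2) * Gc (Y t x) ^ 2
        rw [a3, a4]
        have a8 : bf6 m Gr HO Hs κ p s₀ C₀ Y h t x
            ≤ r ^ 2 * L (Y t x) ^ 2 + |κ| * (‖Gr h (Y t x)‖ ^ 2 * r ^ 2) := by
          refine a7.trans (add_le_add a6 ?_)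
          gcongr
        have a9 : 0 ≤ r ^ 2 * L (Y t x) ^ 2 + |κ| * (‖Gr h (Y t x)‖ ^ 2 * r ^ 2) := by positivity
        calc w x * bf6 m Gr HO Hs κ p s₀ C₀ Y h t x
            ≤ w x * (r ^ 2 * L (Y t x) ^ 2 + |κ| * (‖Gr h (Y t x)‖ ^ 2 * r ^ 2)) :=
              mul_le_mul_of_nonneg_left a8 a1.1
          _ ≤ c * (r ^ 2 * L (Y t x) ^ 2 + |κ| * (‖Gr h (Y t x)‖ ^ 2 * r ^ 2)) :=
              mul_le_mul_of_nonneg_right a1.2 a9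
          _ = _ := by ring
    _ = c * r ^ 2 * (∫ x, Lc (Y t x) ^ 2 ∂m) + c * (|κ| * r ^ 2) * ∫ x, Gc (Y t x) ^ 2 ∂m := by
        rw [← integral_const_mul, ← integral_const_mul,
          ← integral_add (i1.const_mul _) (i2.const_mul _)]
    _ ≤ c * r ^ 2 * (cK K C₀ * (1 / 2 : ℝ) ^ (-N) * I (Lc ^ 2))
        + c * (|κ| * r ^ 2) * (cK K C₀ * (1 / 2 : ℝ) ^ (-N) * I (Gc ^ 2)) := by
        gcongr
    _ = _ := by ring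

end

/-- `RicFlow.fin` from the integrated inequality -/
theorem pc6_fin : PC.Pc6_fin.{u} := by
  intro M _ _ _ _ _ m K N κ P p s₀ C₀ hyp E _ _ _ Gr V D HO e hE φ ρ R Y Hs hLim hM hR h hh hInt
    hEnd w hw hw0
  have hstd := hyp.std
  haveI := H134.sigmaFinite_std hstd p
  have hCg := H134.std_gamma hstd
  have hB : (sob m).BEi K := hCg.bei hstd.hN hstd.rcd.bochner
  have half : (1 / 2 : ℝ) ∈ Ioo (0 : ℝ) 1 := by constructor <;> norm_num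
  have hI := hInt (1 / 2) half
  have hsub : (volume.restrict (Ioo (1 / 2 : ℝ) 1)).prod m
      ≤ (volume.restrict (Ioc (1 / 2 : ℝ) 1)).prod m :=
    Measure.prod_mono (Measure.restrict_mono Ioo_subset_Ioc_self le_rfl) le_rfl
  have iq : ∀ᵐ t ∂(volume.restrict (Ioo (1 / 2 : ℝ) 1)), Integrable (qf6 Gr Hs Y h t) m :=
    (hI.q.mono_measure hsub).prod_right_ae
  have iβ : Integrable (Function.uncurry (bf6 m Gr HO Hs κ p s₀ C₀ Y h))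
      ((volume.restrict (Ioo (1 / 2 : ℝ) 1)).prod m) := hI.b.mono_measure hsub
  have hw0' : ∀ᵐ x ∂m, 0 ≤ w x := nonneg_iff_ae.1 hw0
  obtain ⟨c, hc⟩ := mem_top_iff.1 (hCg.test_A hw.1).2
  have hzA : zc m p s₀ C₀ 1 ∈ (sob m).A := hLim.z_mem 1 ⟨zero_le_one, le_rfl⟩
  have main := H249.loc_end (C := sob m) hCg hB iq iβ hw hw0'
    (Z := (sob m).wHc (zc m p s₀ C₀ 1) h)
    (fun N' _ => wHc_lin hCg hB hzA.1 hh (hCg.test_A hw.1) N') (hEnd (1 / 2) half)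
  have hcw : ∀ᵐ x ∂m, 0 ≤ w x ∧ w x ≤ |c| := by
    filter_upwards [hw0', hc] with x a1 a2
    exact ⟨a1, (le_abs_self _).trans (a2.trans (le_abs_self _))⟩
  obtain ⟨A, hA⟩ := bf6_bd (Hs := Hs) (κ := κ) hstd hyp.hs hyp.hC0 hE.stat.grad hE.stat.hess hLim hM
    hh.1 (abs_nonneg c) hcw
  refine ⟨A, ?_⟩
  -- integrability in time
  have iw : Integrable (fun z : ℝ × M => w z.2 * bf6 m Gr HO Hs κ p s₀ C₀ Y h z.1 z.2)
      ((volume.restrict (Ioc (1 / 2 : ℝ) 1)).prod m) :=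
    hI.b.bdd_mul (c := c) w.aestronglyMeasurable.comp_snd (Measure.quasiMeasurePreserving_snd.ae hc)
  have hA' : ∀ᵐ r ∂(volume.restrict (Ioc (1 / 2 : ℝ) 1)),
      ∫ x, w x * bf6 m Gr HO Hs κ p s₀ C₀ Y h r x ∂m ≤ A := by
    filter_upwards [iw.prod_right_ae, ae_restrict_mem measurableSet_Ioc] with r h1 h2
    exact hA r ⟨h2.1.le, h2.2⟩ h1
  filter_upwards [main, iq, ae_restrict_mem measurableSet_Ioo] with a h1 h2 h3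
  refine ⟨h2.bdd_mul w.aestronglyMeasurable hc, h1.trans ?_⟩
  show (∫ x, w x * qf6 Gr Hs Y h a x ∂m) + _ ≤ (∫ x, w x * qf6 Gr Hs Y h a x ∂m) + A * (1 - a)
  refine add_le_add le_rfl ?_
  have i3 := H249.fub iw h3.1.le h3.2.le le_rfl
  calc ∫ r in a..1, ∫ x, w x * bf6 m Gr HO Hs κ p s₀ C₀ Y h r x ∂m
      ≤ ∫ r in a..1, A := by
        refine intervalIntegral.integral_mono_ae_restrict h3.2.le i3.1
          intervalIntegrable_const ?_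
        rw [← restrict_Ioc_eq_restrict_Icc]
        exact ae_restrict_of_ae_restrict_of_subset (Ioc_subset_Ioc_left h3.1.le) hA'
    _ = A * (1 - a) := by
        rw [intervalIntegral.integral_const, smul_eq_mul, mul_comm]

end Vale.Agent.P233.H788
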