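import Vale.Agent.P233.H788.Exist
import Vale.Agent.P233.Bd3.B3

/-! P233, block A1E (helper788): qualitative bounds of pairs, uniform in time. -/

set_option linter.all false

open MeasureTheory Filter Topology Set
open scoped ENNReal NNReal

universe u

namespace Vale.Agent.P233.H788

variable {M : Type u} [MeasurableSpace M] {m : Measure M} {C : Calc m}

/-- bounds of a test function with bounded Laplacian -/
structure TBd (C : Calc m) (Λ : ℝ) (f : M →ₘ[m] ℝ) : Prop where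
  abs : ∀ᵐ x ∂m, |f x| ≤ Λ
  grad : ∀ᵐ x ∂m, C.Γ f f x ≤ Λ
  lap : ∀ᵐ x ∂m, |C.lap f x| ≤ Λ
  nrm : C.nrm2 f ≤ Λ
  lapn : C.nrm2 (C.lap f) ≤ Λ

theorem TBd.mono {Λ Λ' : ℝ} {f : M →ₘ[m] ℝ} (h : TBd C Λ f) (hΛ : Λ ≤ Λ') : TBd C Λ' f where
  abs := by filter_upwards [h.abs] with x hx using hx.trans hΛ
  grad := by filter_upwards [h.grad] with x hx using hx.trans hΛ
  lap := by filter_upwards [h.lap] with x hx using hx.trans hΛ
  nrm := h.nrm.trans hΛ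
  lapn := h.lapn.trans hΛ

theorem tbd_mk {S : Set (M →ₘ[m] ℝ)} {F : (M →ₘ[m] ℝ) → (M →ₘ[m] ℝ)} {a1 a2 a3 a4 a5 : ℝ}
    (h1 : ∀ f ∈ S, ∀ᵐ x ∂m, |F f x| ≤ a1) (h2 : ∀ f ∈ S, ∀ᵐ x ∂m, C.Γ (F f) (F f) x ≤ a2)
    (h3 : ∀ f ∈ S, ∀ᵐ x ∂m, |C.lap (F f) x| ≤ a3) (h4 : ∀ f ∈ S, C.nrm2 (F f) ≤ a4)
    (h5 : ∀ f ∈ S, C.nrm2 (C.lap (F f)) ≤ a5) : ∃ Λ, 0 ≤ Λ ∧ ∀ f ∈ S, TBd C Λ (F f) := by
  set Λ := max 0 (max a1 (max a2 (max a3 (max a4 a5)))) with hΛ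
  have e0 : 0 ≤ Λ := le_max_left _ _
  have e1 : a1 ≤ Λ := (le_max_left _ _).trans (le_max_right _ _)
  have e2 : a2 ≤ Λ := ((le_max_left _ _).trans (le_max_right _ _)).trans (le_max_right _ _)
  have e3 : a3 ≤ Λ :=
    (((le_max_left _ _).trans (le_max_right _ _)).trans (le_max_right _ _)).trans (le_max_right _ _)
  have e4 : a4 ≤ Λ := ((((le_max_left _ _).trans (le_max_right _ _)).trans
    (le_max_right _ _)).trans (le_max_right _ _)).trans (le_max_right _ _)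
  have e5 : a5 ≤ Λ := ((((le_max_right _ _).trans (le_max_right _ _)).trans
    (le_max_right _ _)).trans (le_max_right _ _)).trans (le_max_right _ _)
  refine ⟨Λ, e0, fun f hf => ⟨?_, ?_, ?_, (h4 f hf).trans e4, (h5 f hf).trans e5⟩⟩
  · filter_upwards [h1 f hf] with x hx using hx.trans e1
  · filter_upwards [h2 f hf] with x hx using hx.trans e2
  · filter_upwards [h3 f hf] with x hx using hx.trans e3

section basic

variable {f g k w : M →ₘ[m] ℝ}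

theorem I_sq_le_of_abs {c : ℝ} (hc : 0 ≤ c) (hf : MemLp f 2 m) (hg : MemLp g 2 m)
    (h : ∀ᵐ x ∂m, |f x| ≤ c * |g x|) : I (f ^ 2) ≤ c ^ 2 * I (g ^ 2) := by
  rw [← I_smul]
  refine I_mono (mem_sq hf) (mem_smul _ (mem_sq hg)) (le_iff_ae.2 ?_)
  filter_upwards [h, sq_ae f, sq_ae g, smul_ae (g ^ 2) (c ^ 2)] with x a1 a2 a3 a4
  rw [a2, a4, a3, ← sq_abs (f x), ← sq_abs (g x), ← mul_pow]
  exact pow_le_pow_left₀ (abs_nonneg _) a1 2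

theorem I_le_of_ae {c : ℝ} (hf : MemLp f 1 m) (hg : MemLp g 1 m)
    (h : ∀ᵐ x ∂m, f x ≤ c * g x) : I f ≤ c * I g := by
  rw [← I_smul]
  refine I_mono hf (mem_smul _ hg) (le_iff_ae.2 ?_)
  filter_upwards [h, smul_ae g c] with x a1 a2
  rw [a2]; exact a1

end basic

section dir

variable (hC : IsDir C) {f g k w : M →ₘ[m] ℝ}
include hC

/-- pointwise square of a sum of gradients -/
theorem Γ_add_le (hf : f ∈ C.W) (hg : g ∈ C.W) :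
    ∀ᵐ x ∂m, C.Γ (f + g) (f + g) x ≤ 2 * C.Γ f f x + 2 * C.Γ g g x := by
  have e1 := hC.Γ_expand 1 hf hg
  have e2 := hC.Γ_expand_ae (-1) hf hg
  rw [one_smul] at e1
  filter_upwards [e2, add_ae (C.Γ f f + (2 * 1 : ℝ) • C.Γ f g) ((1 ^ 2 : ℝ) • C.Γ g g),
    add_ae (C.Γ f f) ((2 * 1 : ℝ) • C.Γ f g), smul_ae (C.Γ f g) (2 * 1), smul_ae (C.Γ g g) (1 ^ 2)]
    with x a1 a2 a3 a4 a5
  rw [e1, a2, a3, a4, a5]
  linarith

end dir

section gam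

variable (hC : IsGamma C) {κ : ℝ} (hB : C.BEi κ) {f g k w : M →ₘ[m] ℝ}
include hC hB

/-- the energy of `Γ f f` -/
theorem E_Γ_le (hf : f ∈ C.TestI) {L : ℝ} (hL : ∀ᵐ x ∂m, C.Γ f f x ≤ L) :
    I (C.Γ (C.Γ f f) (C.Γ f f)) ≤ |L| * (I (C.Γ f f) + I (C.Γ (C.lap f) (C.lap f)))
      + 2 * |κ| * |L| * I (C.Γ f f) := by
  have hD := hC.toIsDir
  have hW := (hC.test_A hf.1).1
  have hl := hC.test_lap_mem hf.1
  have hG := hC.Γ_mem hB hf.1 hf.1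
  have h1 := hC.bochner_weak hB hf.1 hG (hC.nonneg _ hW)
  have hΓL : ∀ᵐ x ∂m, |C.Γ f f x| ≤ |L| := by
    filter_upwards [hL, hD.Γ_nonneg_ae hW] with x a1 a2
    rw [abs_of_nonneg a2]; exact a1.trans (le_abs_self L)
  have m1 : MemLp (C.Γ f f * C.Γ f (C.lap f) : M →ₘ[m] ℝ) 1 m := mem_mul_top hG.2 (hD.Γ_mem1 hW hl)
  have m2 : MemLp (C.Γ f f * C.Γ f f : M →ₘ[m] ℝ) 1 m := mem_mul_top hG.2 (hC.mem1 _ hW)
  have e1 : C.Γ f f * (C.Γ f (C.lap f) + κ • C.Γ f f)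
      = C.Γ f f * C.Γ f (C.lap f) + κ • (C.Γ f f * C.Γ f f) := by
    rw [mul_add, mul_smul_comm]
  rw [e1, I_add m1 (mem_smul _ m2), I_smul] at h1
  have h2 := hC.ac_mul_Γ_le hΓL hW hl (abs_nonneg L)
  have h3 : I (C.Γ f f * C.Γ f f) ≤ |L| * I (C.Γ f f) := by
    refine I_le_of_ae m2 (hC.mem1 _ hW) ?_
    filter_upwards [mul_ae (C.Γ f f) (C.Γ f f), hΓL, hD.Γ_nonneg_ae hW] with x a1 a2 a3
    rw [a1]
    exact mul_le_mul_of_nonneg_right ((le_abs_self _).trans a2) a3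
  have h30 : 0 ≤ I (C.Γ f f * C.Γ f f) := by
    rw [← sq]; exact I_sq_nonneg _
  have h4 : |κ * I (C.Γ f f * C.Γ f f)| ≤ |κ| * (|L| * I (C.Γ f f)) := by
    rw [abs_mul, abs_of_nonneg h30]
    exact mul_le_mul_of_nonneg_left h3 (abs_nonneg _)
  have n1 := hD.E_nonneg hW
  have n2 := hD.E_nonneg hl
  have h5 : 2 * (√(I (C.Γ f f)) * √(I (C.Γ (C.lap f) (C.lap f))))
      ≤ I (C.Γ f f) + I (C.Γ (C.lap f) (C.lap f)) := by
    nlinarith [sq_nonneg (√(I (C.Γ f f)) - √(I (C.Γ (C.lap f) (C.lap f)))), Real.sq_sqrt n1,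
      Real.sq_sqrt n2]
  have h6 := mul_le_mul_of_nonneg_left h5 (abs_nonneg L)
  have h7 := (abs_le.1 h2).1
  have h8 := (abs_le.1 h4).1
  nlinarith

/-- multiplication with an exponential -/
theorem nrm2_ex_mul_le (hw : w ∈ C.TestI) {b G : ℝ} (hb : ∀ᵐ x ∂m, |w x| ≤ b)
    (hG : ∀ᵐ x ∂m, C.Γ w w x ≤ G) (hk : k ∈ C.W) :
    C.nrm2 (ex w * k) ≤ 2 * Real.exp (2 * b) * (1 + |G|) * C.nrm2 k := by
  have hD := hC.toIsDir
  have hwA := hC.test_A hw.1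
  have hexk := hC.ex_mul_W hB hw hk
  have hk2 := hC.memLp _ hk
  have hexb : ∀ᵐ x ∂m, |ex w x| ≤ Real.exp b := by
    filter_upwards [hb, ex_ae w] with x a1 a2
    rw [a2, abs_of_pos (Real.exp_pos _)]
    exact Real.exp_le_exp.2 (abs_le.1 a1).2
  have e2 : Real.exp b ^ 2 = Real.exp (2 * b) := by
    rw [← Real.exp_nat_mul]; norm_num
  have h1 : I ((ex w * k) ^ 2) ≤ Real.exp (2 * b) * I (k ^ 2) := by
    rw [← e2]
    refine I_sq_le_of_abs (Real.exp_pos _).le (hC.memLp _ hexk) hk2 ?_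
    filter_upwards [mul_ae (ex w) k, hexb] with x a1 a2
    rw [a1, abs_mul]
    exact mul_le_mul_of_nonneg_right a2 (abs_nonneg _)
  have hΓ : C.Γ (ex w * k) (ex w * k) = ex w ^ 2 * (C.Γ k k + k * C.Γ w k)
      + ex w ^ 2 * k * (C.Γ w k + k * C.Γ w w) := by
    have s1 : C.Γ k (ex w * k) = ex w * (C.Γ k k + k * C.Γ w k) := by
      rw [hC.symm _ hk _ hexk, hC.Γ_ex_mul_W hB hw hk hk]
    have s2 : C.Γ w (ex w * k) = ex w * (C.Γ w k + k * C.Γ w w) := by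
      rw [hC.symm _ hwA.1 _ hexk, hC.Γ_ex_mul_W hB hw hk hwA.1, hC.symm _ hk _ hwA.1]
    rw [hC.Γ_ex_mul_W hB hw hk hexk, s1, s2]
    ring
  have h2 : ∀ᵐ x ∂m, C.Γ (ex w * k) (ex w * k) x
      ≤ 2 * Real.exp (2 * b) * (C.Γ k k x + |G| * k x ^ 2) := by
    rw [hΓ]
    filter_upwards [add_ae (ex w ^ 2 * (C.Γ k k + k * C.Γ w k))
        (ex w ^ 2 * k * (C.Γ w k + k * C.Γ w w)),
      mul_ae (ex w ^ 2) (C.Γ k k + k * C.Γ w k), sq_ae (ex w), add_ae (C.Γ k k) (k * C.Γ w k),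
      mul_ae k (C.Γ w k), mul_ae (ex w ^ 2 * k) (C.Γ w k + k * C.Γ w w), mul_ae (ex w ^ 2) k,
      add_ae (C.Γ w k) (k * C.Γ w w), mul_ae k (C.Γ w w), hexb, hG, hD.Γ_cs_ae hwA.1 hk,
      hD.Γ_nonneg_ae hwA.1, hD.Γ_nonneg_ae hk]
      with x a1 a2 a3 a4 a5 a6 a7 a8 a9 a10 a11 a12 a13 a14
    rw [a1, a2, a3, a4, a5, a6, a7, a8, a9, a3]
    have h1 : ex w x ^ 2 ≤ Real.exp (2 * b) := by
      rw [← e2, ← sq_abs]
      exact pow_le_pow_left₀ (abs_nonneg _) a10 2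
    have h2 : 2 * |k x * C.Γ w k x| ≤ C.Γ k k x + k x ^ 2 * C.Γ w w x := by
      rw [abs_mul]
      have q1 : |C.Γ w k x| ≤ √(C.Γ w w x) * √(C.Γ k k x) := by
        rw [← Real.sqrt_mul a13]
        exact Real.abs_le_sqrt a12
      have q2 : |k x| * |C.Γ w k x| ≤ |k x| * (√(C.Γ w w x) * √(C.Γ k k x)) :=
        mul_le_mul_of_nonneg_left q1 (abs_nonneg _)
      nlinarith [sq_nonneg (|k x| * √(C.Γ w w x) - √(C.Γ k k x)), Real.sq_sqrt a13,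
        Real.sq_sqrt a14, sq_abs (k x)]
    have h3 : C.Γ w w x ≤ |G| := a11.trans (le_abs_self G)
    have h4 : k x ^ 2 * C.Γ w w x ≤ |G| * k x ^ 2 := by
      rw [mul_comm]; exact mul_le_mul_of_nonneg_right h3 (sq_nonneg _)
    have h5 := (abs_le.1 (show |k x * C.Γ w k x| ≤ (C.Γ k k x + k x ^ 2 * C.Γ w w x) / 2 by
      linarith)).2
    have h6 : ex w x ^ 2 * (C.Γ k k x + k x * C.Γ w k x)
        + ex w x ^ 2 * k x * (C.Γ w k x + k x * C.Γ w w x)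
        = ex w x ^ 2 * (C.Γ k k x + 2 * (k x * C.Γ w k x) + k x ^ 2 * C.Γ w w x) := by ring
    rw [h6]
    calc ex w x ^ 2 * (C.Γ k k x + 2 * (k x * C.Γ w k x) + k x ^ 2 * C.Γ w w x)
        ≤ ex w x ^ 2 * (2 * (C.Γ k k x + |G| * k x ^ 2)) := by
          refine mul_le_mul_of_nonneg_left ?_ (sq_nonneg _)
          linarith
      _ ≤ Real.exp (2 * b) * (2 * (C.Γ k k x + |G| * k x ^ 2)) := by
          refine mul_le_mul_of_nonneg_right h1 ?_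
          have := mul_nonneg (abs_nonneg G) (sq_nonneg (k x))
          linarith
      _ = _ := by ring
  have h3 : I (C.Γ (ex w * k) (ex w * k))
      ≤ 2 * Real.exp (2 * b) * (I (C.Γ k k) + |G| * I (k ^ 2)) := by
    have q := I_le_of_ae (c := 2 * Real.exp (2 * b)) (g := C.Γ k k + |G| • k ^ 2)
      (hC.mem1 _ hexk) (mem_add (hC.mem1 _ hk) (mem_smul _ (mem_sq hk2))) (by
        filter_upwards [h2, add_ae (C.Γ k k) (|G| • k ^ 2), smul_ae (k ^ 2) |G|, sq_ae k]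
          with x a1 a2 a3 a4
        rw [a2, a3, a4]; exact a1)
    rwa [I_add (hC.mem1 _ hk) (mem_smul _ (mem_sq hk2)), I_smul] at q
  have n1 := hD.E_nonneg hk
  have n2 := I_sq_nonneg k
  have n3 := Real.exp_pos (2 * b)
  unfold Calc.nrm2
  have n4 : 0 ≤ Real.exp (2 * b) * I (k ^ 2) := mul_nonneg n3.le n2
  have n5 : 0 ≤ Real.exp (2 * b) * |G| * I (C.Γ k k) :=
    mul_nonneg (mul_nonneg n3.le (abs_nonneg _)) n1
  nlinarith

theorem nrm2_Γ_le {Λ : ℝ} (hΛ : 0 ≤ Λ) (hf : f ∈ C.TestI) (h : TBd C Λ f) :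
    C.nrm2 (C.Γ f f) ≤ (3 + 2 * |κ|) * Λ ^ 2 := by
  have hD := hC.toIsDir
  have hW := (hC.test_A hf.1).1
  have hl := hC.test_lap_mem hf.1
  have hG := hC.Γ_mem hB hf.1 hf.1
  have h1 := E_Γ_le hC hB hf h.grad
  rw [abs_of_nonneg hΛ] at h1
  have h2 : I (C.Γ f f ^ 2) ≤ Λ * I (C.Γ f f) := by
    refine I_le_of_ae (mem_sq (hC.memLp _ hG.1)) (hC.mem1 _ hW) ?_
    filter_upwards [sq_ae (C.Γ f f), h.grad, hD.Γ_nonneg_ae hW] with x a1 a2 a3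
    rw [a1, sq]
    exact mul_le_mul_of_nonneg_right a2 a3
  have n1 := hD.E_nonneg hW
  have e1 : I (C.Γ f f) ≤ Λ := (hD.E_le_nrm2 f).trans h.nrm
  have e2 : I (C.Γ (C.lap f) (C.lap f)) ≤ Λ := (hD.E_le_nrm2 _).trans h.lapn
  have e3 := mul_le_mul_of_nonneg_left e1 hΛ
  have e4 := mul_le_mul_of_nonneg_left e2 hΛ
  have e5 := mul_le_mul_of_nonneg_left e3 (abs_nonneg κ)
  unfold Calc.nrm2
  nlinarith

theorem exists_tbd (hf : f ∈ C.TestI) : ∃ Λ, 0 ≤ Λ ∧ TBd C Λ f := by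
  obtain ⟨a, ha⟩ := mem_top_iff.1 (hC.test_A hf.1).2
  obtain ⟨b, hb⟩ := mem_top_iff.1 (hC.test_Γ_top hf.1)
  obtain ⟨c, hc⟩ := mem_top_iff.1 hf.2
  obtain ⟨Λ, h0, h⟩ := tbd_mk (C := C) (S := {g | g = f}) (F := fun g => g) (a1 := a) (a2 := b)
    (a3 := c) (a4 := C.nrm2 f) (a5 := C.nrm2 (C.lap f)) (by rintro g rfl; exact ha)
    (by
      rintro g rfl
      filter_upwards [hb] with x hx using (le_abs_self _).trans hx)
    (by rintro g rfl; exact hc) (by rintro g rfl; exact le_rfl) (by rintro g rfl; exact le_rfl)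
  exact ⟨Λ, h0, h f rfl⟩

theorem tbd_smul {Λ : ℝ} (hΛ : 0 ≤ Λ) (hf : f ∈ C.TestI) (h : TBd C Λ f) (c : ℝ) :
    TBd C ((1 + c ^ 2) * Λ) (c • f) := by
  have hD := hC.toIsDir
  have hW := (hC.test_A hf.1).1
  have hl := hC.test_lap_mem hf.1
  have hc : |c| ≤ 1 + c ^ 2 := by
    rw [← sq_abs]; nlinarith [sq_nonneg (|c| - 1), abs_nonneg c]
  have key : ∀ g : M →ₘ[m] ℝ, (∀ᵐ x ∂m, |g x| ≤ Λ) → ∀ᵐ x ∂m, |(c • g : M →ₘ[m] ℝ) x| ≤
      (1 + c ^ 2) * Λ := fun g hg => by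
    filter_upwards [hg, smul_ae g c] with x a1 a2
    rw [a2, abs_mul]
    exact mul_le_mul hc a1 (abs_nonneg _) (by positivity)
  have hn : ∀ g ∈ C.W, C.nrm2 (c • g) = c ^ 2 * C.nrm2 g := fun g hg => by
    unfold Calc.nrm2
    rw [hD.E_smul c hg, smul_pow, I_smul]; ring
  refine ⟨key f h.abs, ?_, ?_, ?_, ?_⟩
  · rw [hD.smul_left c _ hW _ (hD.smul_mem c _ hW), hD.Γ_smul_right c hW hW]
    filter_upwards [smul_ae (c • C.Γ f f) c, smul_ae (C.Γ f f) c, h.grad, hD.Γ_nonneg_ae hW]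
      with x a1 a2 a3 a4
    rw [a1, a2]
    nlinarith [sq_nonneg c, mul_le_mul_of_nonneg_left a3 (sq_nonneg c)]
  · rw [hC.lap_smul hB c hf.1]; exact key _ h.lap
  · rw [hn _ hW]
    nlinarith [sq_nonneg c, mul_le_mul_of_nonneg_left h.nrm (sq_nonneg c), hΛ]
  · rw [hC.lap_smul hB c hf.1, hn _ hl]
    nlinarith [sq_nonneg c, mul_le_mul_of_nonneg_left h.lapn (sq_nonneg c), hΛ]

theorem tbd_add {Λ₁ Λ₂ : ℝ} (h1 : 0 ≤ Λ₁) (h2 : 0 ≤ Λ₂) (hf : f ∈ C.TestI) (hg : g ∈ C.TestI)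
    (hf' : TBd C Λ₁ f) (hg' : TBd C Λ₂ g) : TBd C (2 * Λ₁ + 2 * Λ₂) (f + g) := by
  have hD := hC.toIsDir
  have hW := (hC.test_A hf.1).1
  have hW' := (hC.test_A hg.1).1
  have hl := hC.test_lap_mem hf.1
  have hl' := hC.test_lap_mem hg.1
  refine ⟨?_, ?_, ?_, ?_, ?_⟩
  · filter_upwards [hf'.abs, hg'.abs, add_ae f g] with x a1 a2 a3
    rw [a3]; exact (abs_add_le _ _).trans (by linarith)
  · filter_upwards [Γ_add_le hD hW hW', hf'.grad, hg'.grad] with x a1 a2 a3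
    linarith
  · rw [hC.lap_add hB hf.1 hg.1]
    filter_upwards [hf'.lap, hg'.lap, add_ae (C.lap f) (C.lap g)] with x a1 a2 a3
    rw [a3]; exact (abs_add_le _ _).trans (by linarith)
  · exact (hD.nrm2_add_le hW hW').trans (by linarith [hf'.nrm, hg'.nrm])
  · rw [hC.lap_add hB hf.1 hg.1]
    exact (hD.nrm2_add_le hl hl').trans (by linarith [hf'.lapn, hg'.lapn])

/-- bounds of `ex f - 1` -/
theorem tbd_ex {Λ : ℝ} (hΛ : 0 ≤ Λ) : ∃ Λ', 0 ≤ Λ' ∧ ∀ f ∈ {f : M →ₘ[m] ℝ | f ∈ C.TestI ∧ TBd C Λ f},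
    TBd C Λ' (ex f - 1) := by
  have hD := hC.toIsDir
  have e2 : Real.exp Λ ^ 2 = Real.exp (2 * Λ) := by
    rw [← Real.exp_nat_mul]; norm_num
  have hexb : ∀ f : M →ₘ[m] ℝ, TBd C Λ f → ∀ᵐ x ∂m, |ex f x| ≤ Real.exp Λ := fun f h => by
    filter_upwards [h.abs, ex_ae f] with x a1 a2
    rw [a2, abs_of_pos (Real.exp_pos _)]
    exact Real.exp_le_exp.2 (abs_le.1 a1).2
  have hΓ : ∀ f ∈ {f : M →ₘ[m] ℝ | f ∈ C.TestI ∧ TBd C Λ f}, ∀ᵐ x ∂m,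
      C.Γ (ex f - 1) (ex f - 1) x ≤ Real.exp (2 * Λ) * C.Γ f f x := by
    rintro f ⟨hf, h⟩
    rw [hD.Γ_ex_self (hC.test_A hf.1)]
    filter_upwards [mul_ae (ex f ^ 2) (C.Γ f f), sq_ae (ex f), hexb f h,
      hD.Γ_nonneg_ae (hC.test_A hf.1).1] with x a1 a2 a3 a4
    rw [a1, a2, ← e2, ← sq_abs (ex f x)]
    exact mul_le_mul_of_nonneg_right (pow_le_pow_left₀ (abs_nonneg _) a3 2) a4
  refine tbd_mk (F := fun f => ex f - 1) (a1 := Real.exp Λ + 1) (a2 := Real.exp (2 * Λ) * Λ)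
    (a3 := Real.exp Λ * (Λ + Λ)) (a4 := Real.exp (2 * Λ) * Λ)
    (a5 := 2 * Real.exp (2 * Λ) * (1 + |Λ|) * (2 * Λ + 2 * ((3 + 2 * |κ|) * Λ ^ 2)))
    ?_ ?_ ?_ ?_ ?_
  · rintro f ⟨hf, h⟩
    filter_upwards [hexb f h, sub_ae (ex f) 1, one_ae (M := M) (m := m)] with x a1 a2 a3
    rw [a2, a3]
    exact (abs_sub _ _).trans (by rw [abs_one]; linarith)
  · intro f hf
    filter_upwards [hΓ f hf, hf.2.grad] with x a1 a2
    exact a1.trans (mul_le_mul_of_nonneg_left a2 (Real.exp_pos _).le)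
  · rintro f ⟨hf, h⟩
    rw [hC.lap_ex hB hf]
    filter_upwards [mul_ae (ex f) (C.lap f + C.Γ f f), add_ae (C.lap f) (C.Γ f f), hexb f h,
      h.lap, h.grad, hD.Γ_nonneg_ae (hC.test_A hf.1).1] with x a1 a2 a3 a4 a5 a6
    rw [a1, a2, abs_mul]
    refine mul_le_mul a3 ((abs_add_le _ _).trans ?_) (abs_nonneg _) (Real.exp_pos _).le
    rw [abs_of_nonneg a6]; linarith
  · rintro f ⟨hf, h⟩
    have hA := hC.test_A hf.1
    have hA' := hD.ex_A hA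
    have q1 : I ((ex f - 1) ^ 2) ≤ Real.exp Λ ^ 2 * I (f ^ 2) := by
      refine I_sq_le_of_abs (Real.exp_pos _).le (hC.memLp _ hA'.1) (hC.memLp _ hA.1) ?_
      filter_upwards [ex_sub_one_ae f, h.abs] with x a1 a2
      rw [a1]
      have b1 : Real.exp (f x) - 1 ≤ Real.exp Λ * |f x| := by
        rcases le_total 0 (f x) with h0 | h0
        · have c1 : Real.exp (-(f x)) ≥ 1 - f x := by
            have := Real.add_one_le_exp (-(f x)); linarith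
          have c2 : Real.exp (f x) * Real.exp (-(f x)) = 1 := by rw [← Real.exp_add]; simp
          have c3 : Real.exp (f x) ≤ Real.exp Λ := Real.exp_le_exp.2 (abs_le.1 a2).2
          rw [abs_of_nonneg h0]
          nlinarith [Real.exp_pos (f x), mul_le_mul_of_nonneg_right c3 h0]
        · have : Real.exp (f x) ≤ 1 := Real.exp_le_one_iff.2 h0
          have := mul_nonneg (Real.exp_pos Λ).le (abs_nonneg (f x))
          linarith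
      have b2 : -(Real.exp Λ * |f x|) ≤ Real.exp (f x) - 1 := by
        have c1 := Real.add_one_le_exp (f x)
        have c2 : 1 ≤ Real.exp Λ := Real.one_le_exp hΛ
        have c3 := mul_le_mul_of_nonneg_right c2 (abs_nonneg (f x))
        have c4 := neg_abs_le (f x)
        linarith
      exact abs_le.2 ⟨b2, b1⟩
    have q2 : I (C.Γ (ex f - 1) (ex f - 1)) ≤ Real.exp (2 * Λ) * I (C.Γ f f) :=
      I_le_of_ae (hC.mem1 _ hA'.1) (hC.mem1 _ hA.1) (hΓ f ⟨hf, h⟩)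
    have q3 := mul_le_mul_of_nonneg_left h.nrm (Real.exp_pos (2 * Λ)).le
    rw [e2] at q1
    unfold Calc.nrm2 at q3 ⊢
    linarith
  · rintro f ⟨hf, h⟩
    have hA := hC.test_A hf.1
    have hl := hC.test_lap_mem hf.1
    have hG := (hC.Γ_mem hB hf.1 hf.1).1
    rw [hC.lap_ex hB hf]
    refine (nrm2_ex_mul_le hC hB hf h.abs h.grad (hD.add_mem _ hl _ hG)).trans ?_
    refine mul_le_mul_of_nonneg_left ?_ (by positivity)
    exact (hD.nrm2_add_le hl hG).trans (by linarith [h.lapn, nrm2_Γ_le hC hB hΛ hf h])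

/-- bounds of `f` from bounds of `ex f - 1` -/
theorem tbd_lg {Λ b : ℝ} (hΛ : 0 ≤ Λ) (hb : 0 ≤ b) : ∃ Λ', 0 ≤ Λ' ∧
    ∀ f ∈ {f : M →ₘ[m] ℝ | f ∈ C.TestI ∧ (∀ᵐ x ∂m, |f x| ≤ b) ∧ TBd C Λ (ex f - 1)},
    TBd C Λ' f := by
  have hD := hC.toIsDir
  have e2 : Real.exp b ^ 2 = Real.exp (2 * b) := by
    rw [← Real.exp_nat_mul]; norm_num
  have hexb : ∀ f : M →ₘ[m] ℝ, (∀ᵐ x ∂m, |f x| ≤ b) → ∀ᵐ x ∂m, |ex (-f) x| ≤ Real.exp b :=
    fun f h => by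
    filter_upwards [h, ex_ae (-f), neg_ae f] with x a1 a2 a3
    rw [a2, abs_of_pos (Real.exp_pos _), a3]
    exact Real.exp_le_exp.2 (by linarith [(abs_le.1 a1).1])
  have hΓe : ∀ f ∈ C.TestI, C.Γ f f = ex (-f) * (ex (-f) * C.Γ (ex f - 1) (ex f - 1)) :=
    fun f hf => by
    rw [hD.Γ_ex_self (hC.test_A hf.1)]
    have : ex (-f) * (ex (-f) * (ex f ^ 2 * C.Γ f f)) = (ex (-f) * ex f) ^ 2 * C.Γ f f := by ring
    rw [this, ex_neg_mul, one_pow, one_mul]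
  have hΓ : ∀ f ∈ {f : M →ₘ[m] ℝ | f ∈ C.TestI ∧ (∀ᵐ x ∂m, |f x| ≤ b) ∧ TBd C Λ (ex f - 1)},
      ∀ᵐ x ∂m, C.Γ f f x ≤ Real.exp (2 * b) * C.Γ (ex f - 1) (ex f - 1) x := by
    rintro f ⟨hf, hfb, h⟩
    have hI := hC.ex_testI hB hf
    filter_upwards [mul_ae (ex (-f)) (ex (-f) * C.Γ (ex f - 1) (ex f - 1)),
      mul_ae (ex (-f)) (C.Γ (ex f - 1) (ex f - 1)), hexb f hfb,
      hD.Γ_nonneg_ae (hC.test_A hI.1).1, eq_iff_ae.1 (hΓe f hf)] with x a1 a2 a3 a4 a5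
    rw [a5, a1, a2, ← mul_assoc, ← sq, ← e2, ← sq_abs (ex (-f) x)]
    exact mul_le_mul_of_nonneg_right (pow_le_pow_left₀ (abs_nonneg _) a3 2) a4
  have hlap : ∀ f ∈ C.TestI, C.lap f = ex (-f) * C.lap (ex f - 1) - C.Γ f f := fun f hf => by
    rw [hC.lap_ex hB hf, ← mul_assoc, ex_neg_mul, one_mul]; ring
  have hG : ∀ f ∈ {f : M →ₘ[m] ℝ | f ∈ C.TestI ∧ (∀ᵐ x ∂m, |f x| ≤ b) ∧ TBd C Λ (ex f - 1)},
      ∀ᵐ x ∂m, C.Γ f f x ≤ Real.exp (2 * b) * Λ := fun f hf => by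
    filter_upwards [hΓ f hf, hf.2.2.grad] with x a1 a2
    exact a1.trans (mul_le_mul_of_nonneg_left a2 (Real.exp_pos _).le)
  refine tbd_mk (F := fun f => f) (a1 := b) (a2 := Real.exp (2 * b) * Λ)
    (a3 := Real.exp b * Λ + Real.exp (2 * b) * Λ) (a4 := Real.exp (2 * b) * Λ)
    (a5 := 2 * (2 * Real.exp (2 * b) * (1 + |Real.exp (2 * b) * Λ|) * Λ)
      + 2 * ((2 * Real.exp (2 * b) * (1 + |Real.exp (2 * b) * Λ|)) *
        ((2 * Real.exp (2 * b) * (1 + |Real.exp (2 * b) * Λ|)) * ((3 + 2 * |κ|) * Λ ^ 2))))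
    (fun f hf => hf.2.1) hG ?_ ?_ ?_
  · rintro f ⟨hf, hfb, h⟩
    rw [hlap f hf]
    filter_upwards [sub_ae (ex (-f) * C.lap (ex f - 1)) (C.Γ f f),
      mul_ae (ex (-f)) (C.lap (ex f - 1)), hexb f hfb, h.lap, hG f ⟨hf, hfb, h⟩,
      hD.Γ_nonneg_ae (hC.test_A hf.1).1] with x a1 a2 a3 a4 a5 a6
    rw [a1, a2]
    refine (abs_sub _ _).trans (add_le_add ?_ ?_)
    · rw [abs_mul]; exact mul_le_mul a3 a4 (abs_nonneg _) (Real.exp_pos _).le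
    · rw [abs_of_nonneg a6]; exact a5
  · rintro f ⟨hf, hfb, h⟩
    have hA := hC.test_A hf.1
    have hA' := hD.ex_A hA
    have q1 : I (f ^ 2) ≤ Real.exp b ^ 2 * I ((ex f - 1) ^ 2) := by
      refine I_sq_le_of_abs (Real.exp_pos _).le (hC.memLp _ hA.1) (hC.memLp _ hA'.1) ?_
      filter_upwards [ex_sub_one_ae f, hfb] with x a1 a2
      rw [a1]
      have c2 : 1 ≤ Real.exp b := Real.one_le_exp hb
      rcases le_total 0 (f x) with h0 | h0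
      · have c1 := Real.add_one_le_exp (f x)
        have c3 : |Real.exp (f x) - 1| = Real.exp (f x) - 1 :=
          abs_of_nonneg (by linarith)
        rw [c3, abs_of_nonneg h0]
        have c4 : 0 ≤ Real.exp (f x) - 1 := by linarith
        nlinarith [mul_le_mul_of_nonneg_right c2 c4]
      · have c1 := Real.add_one_le_exp (-(f x))
        have c4 : Real.exp (f x) ≤ 1 := Real.exp_le_one_iff.2 h0
        have c3 : |Real.exp (f x) - 1| = 1 - Real.exp (f x) := by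
          rw [abs_sub_comm]; exact abs_of_nonneg (by linarith)
        rw [c3, abs_of_nonpos h0]
        have c5 : Real.exp (f x) * Real.exp (-(f x)) = 1 := by rw [← Real.exp_add]; simp
        have c6 : Real.exp (-(f x)) ≤ Real.exp b := Real.exp_le_exp.2 (by linarith [(abs_le.1 a2).1])
        have c7 := mul_le_mul_of_nonneg_right c6 (sub_nonneg.2 c4)
        nlinarith
    have q2 : I (C.Γ f f) ≤ Real.exp (2 * b) * I (C.Γ (ex f - 1) (ex f - 1)) :=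
      I_le_of_ae (hC.mem1 _ hA.1) (hC.mem1 _ hA'.1) (hΓ f ⟨hf, hfb, h⟩)
    have q3 := mul_le_mul_of_nonneg_left h.nrm (Real.exp_pos (2 * b)).le
    rw [e2] at q1
    unfold Calc.nrm2 at q3 ⊢
    linarith
  · rintro f ⟨hf, hfb, h⟩
    have hI := hC.ex_testI hB hf
    have hl := hC.test_lap_mem hI.1
    have hGχ := (hC.Γ_mem hB hI.1 hI.1).1
    have hn := hC.testI_neg hB hf
    have hnb : ∀ᵐ x ∂m, |(-f : M →ₘ[m] ℝ) x| ≤ b := by
      filter_upwards [neg_ae f, hfb] with x a1 a2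
      rw [a1, abs_neg]; exact a2
    have hnG : ∀ᵐ x ∂m, C.Γ (-f) (-f) x ≤ Real.exp (2 * b) * Λ := by
      have hW := (hC.test_A hf.1).1
      rw [hD.Γ_neg_left hW (hD.neg_mem hW), hD.Γ_neg_right hW hW, neg_neg]
      exact hG f ⟨hf, hfb, h⟩
    have w1 := hC.ex_mul_W hB hn hl
    have w2 := hC.ex_mul_W hB hn hGχ
    have w3 := hC.ex_mul_W hB hn w2
    have p1 := nrm2_ex_mul_le hC hB hn hnb hnG hl
    have p2 := nrm2_ex_mul_le hC hB hn hnb hnG hGχ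
    have p3 := nrm2_ex_mul_le hC hB hn hnb hnG w2
    have p4 := nrm2_Γ_le hC hB hΛ hI h
    have hc : 0 ≤ 2 * Real.exp (2 * b) * (1 + |Real.exp (2 * b) * Λ|) := by positivity
    have p5 := hD.nrm2_sub_le w1 w3
    rw [hlap f hf, hΓe f hf]
    refine p5.trans (add_le_add ?_ ?_)
    · refine mul_le_mul_of_nonneg_left (p1.trans (mul_le_mul_of_nonneg_left h.lapn hc)) (by norm_num)
    · refine mul_le_mul_of_nonneg_left (p3.trans (mul_le_mul_of_nonneg_left (p2.trans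
        (mul_le_mul_of_nonneg_left p4 hc)) hc)) (by norm_num)

end gam

/-! ### flows and pairs -/

section flow

variable {K : ℝ} {P : ℝ → (M →ₘ[m] ℝ) → (M →ₘ[m] ℝ)} (hP : Heat C K P)
variable (hC : IsGamma C) {κ : ℝ} (hB : C.BEi κ)
include hP hC

theorem lap_P {s : ℝ} (hs : 0 ≤ s) {χ : M →ₘ[m] ℝ} (hχ : χ ∈ C.Test) :
    C.lap (P s χ) = P s (C.lap χ) :=
  hC.toIsDir.lap_eq (hP.lapP s hs _ _ (hC.test_isLap hχ))

theorem nrm2_P {s : ℝ} (hs : 0 ≤ s) {f : M →ₘ[m] ℝ} (hf : f ∈ C.W) :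
    C.nrm2 (P s f) ≤ C.nrm2 f := by
  have h1 := hP.contr s hs f (hC.memLp _ hf)
  have h2 := (hP.memW s hs f hf).2
  unfold Calc.nrm2; linarith

theorem tbd_P {Λ S : ℝ} (hΛ : 0 ≤ Λ) (hS : 0 ≤ S) : ∃ Λ', 0 ≤ Λ' ∧ ∀ χ : M →ₘ[m] ℝ,
    χ ∈ C.TestI → TBd C Λ χ → ∀ s, 0 ≤ s → s ≤ S → TBd C Λ' (P s χ) := by
  have h1 : 1 ≤ Real.exp (2 * |K| * S) := Real.one_le_exp (by positivity)
  have h2 : Λ ≤ Real.exp (2 * |K| * S) * Λ := by nlinarith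
  refine ⟨Real.exp (2 * |K| * S) * Λ, by positivity, fun χ hχ h s hs hsS => ?_⟩
  have hA := hC.test_A hχ.1
  have hl := hC.test_lap_mem hχ.1
  refine ⟨?_, ?_, ?_, ?_, ?_⟩
  · filter_upwards [P_abs_le hP hs (hC.memLp _ hA.1) hΛ h.abs] with x hx using hx.trans h2
  · filter_upwards [hP.grad s hs χ hA.1 Λ h.grad] with x hx
    refine hx.trans (mul_le_mul_of_nonneg_right (Real.exp_le_exp.2 ?_) hΛ)
    have h3 : -K * s ≤ |K| * S := (mul_le_mul_of_nonneg_right (neg_le_abs K) hs).trans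
      (mul_le_mul_of_nonneg_left hsS (abs_nonneg K))
    nlinarith
  · rw [lap_P hP hC hs hχ.1]
    filter_upwards [P_abs_le hP hs (hC.memLp _ hl) hΛ h.lap] with x hx using hx.trans h2
  · exact ((nrm2_P hP hC hs hA.1).trans h.nrm).trans h2
  · rw [lap_P hP hC hs hχ.1]
    exact ((nrm2_P hP hC hs hl).trans h.lapn).trans h2

include hB

/-- bounds along the logarithmic heat flow, uniformly for `0 ≤ s ≤ S` -/
theorem tbd_log_flow {w0 : M →ₘ[m] ℝ} (hw0 : w0 ∈ C.TestI) {S : ℝ} (hS : 0 ≤ S) :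
    ∃ Λ, 0 ≤ Λ ∧ ∀ s, 0 ≤ s → s ≤ S → ∀ w ∈ C.TestI, ex w - 1 = P s (ex w0 - 1) →
      TBd C Λ w ∧ TBd C Λ (ex w - 1) := by
  obtain ⟨Λ0, hΛ0, h0⟩ := exists_tbd hC hB hw0
  obtain ⟨Λ1, hΛ1, h1⟩ := tbd_ex hC hB hΛ0
  obtain ⟨Λ2, hΛ2, h2⟩ := tbd_P hP hC hΛ1 hS
  obtain ⟨Λ3, hΛ3, h3⟩ := tbd_lg hC hB (b := Λ0) hΛ2 hΛ0
  have hχ := hC.ex_testI hB hw0
  have hχ2 : MemLp (ex w0 - 1 : M →ₘ[m] ℝ) 2 m := hC.memLp _ (hC.test_A hχ.1).1
  refine ⟨max Λ2 Λ3, hΛ2.trans (le_max_left _ _), fun s hs hsS w hw he => ?_⟩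
  have hP2 : TBd C Λ2 (ex w - 1) := by
    rw [he]; exact h2 _ hχ (h1 w0 ⟨hw0, h0⟩) s hs hsS
  refine ⟨(h3 w ⟨hw, ?_, hP2⟩).mono (le_max_right _ _), hP2.mono (le_max_left _ _)⟩
  -- the bound of `w`
  have hb : ∀ᵐ x ∂m, -Λ0 ≤ w0 x ∧ w0 x ≤ Λ0 := by
    filter_upwards [h0.abs] with x hx using abs_le.1 hx
  have e1 : 1 ≤ Real.exp Λ0 := Real.one_le_exp hΛ0
  have e2 : Real.exp (-Λ0) ≤ 1 := Real.exp_le_one_iff.2 (by linarith)
  have up : ∀ᵐ x ∂m, P s (ex w0 - 1) x ≤ Real.exp Λ0 - 1 := by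
    refine hP.le s hs _ hχ2 _ (by linarith) ?_
    filter_upwards [ex_sub_one_ae w0, hb] with x a1 a2
    rw [a1]; linarith [Real.exp_le_exp.2 a2.2]
  have lo : ∀ᵐ x ∂m, -(1 - Real.exp (-Λ0)) ≤ P s (ex w0 - 1) x := by
    refine P_ge hP hs hχ2 (by linarith) ?_
    filter_upwards [ex_sub_one_ae w0, hb] with x a1 a2
    rw [a1]; linarith [Real.exp_le_exp.2 a2.1]
  rw [← he] at up lo
  filter_upwards [up, lo, ex_sub_one_ae w] with x a1 a2 a3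
  rw [a3] at a1 a2
  exact abs_le.2 ⟨Real.exp_le_exp.1 (by linarith), Real.exp_le_exp.1 (by linarith)⟩

/-- all functions of a pair are bounded, uniformly in time -/
theorem pair_bounds {ε a b : ℝ} {φ u : ℝ → M →ₘ[m] ℝ} (hp : Pair C P ε a b φ u) :
    ∃ Λ, 0 ≤ Λ ∧ ∀ t ∈ Icc a b, TBd C Λ (u t) ∧ TBd C Λ (φ t) ∧
      TBd C Λ (ex (ε⁻¹ • φ t) - 1) ∧ TBd C Λ (ex (-(ε⁻¹ • u t)) - 1) ∧
      TBd C Λ (LL ε φ u t) ∧ TBd C Λ (th φ u t) ∧ TBd C Λ (rh ε φ u t - 1) ∧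
      (∀ᵐ x ∂m, Real.exp (-Λ) ≤ rh ε φ u t x ∧ rh ε φ u t x ≤ Real.exp Λ) := by
  have hε := hp.hε
  have hε' : ε ≠ 0 := hε.ne'
  have hab := hp.hab
  have ha : a ∈ Icc a b := ⟨le_rfl, hab.le⟩
  have hb : b ∈ Icc a b := ⟨hab.le, le_rfl⟩
  have hS : 0 ≤ ε * (b - a) / 2 := by
    have : 0 ≤ b - a := by linarith
    positivity
  have nI : ∀ t ∈ Icc a b, -(ε⁻¹ • u t) ∈ C.TestI := fun t ht =>
    hC.testI_neg hB (hC.testI_smul hB _ (hp.u_mem t ht))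
  have pI : ∀ t ∈ Icc a b, ε⁻¹ • φ t ∈ C.TestI := fun t ht =>
    hC.testI_smul hB _ (hp.φ_mem t ht)
  obtain ⟨Λ1, hΛ1, h1⟩ := tbd_log_flow hP hC hB (nI a ha) hS
  obtain ⟨Λ2, hΛ2, h2⟩ := tbd_log_flow hP hC hB (pI b hb) hS
  have U : ∀ t ∈ Icc a b, TBd C Λ1 (-(ε⁻¹ • u t)) ∧ TBd C Λ1 (ex (-(ε⁻¹ • u t)) - 1) := by
    intro t ht
    refine h1 (ε * (t - a) / 2) ?_ ?_ _ (nI t ht) (hp.g_eq t ht)
    · have : 0 ≤ t - a := by linarith [ht.1]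
      positivity
    · have := mul_le_mul_of_nonneg_left (show t - a ≤ b - a by linarith [ht.2]) hε.le
      linarith
  have F : ∀ t ∈ Icc a b, TBd C Λ2 (ε⁻¹ • φ t) ∧ TBd C Λ2 (ex (ε⁻¹ • φ t) - 1) := by
    intro t ht
    refine h2 (ε * (b - t) / 2) ?_ ?_ _ (pI t ht) (hp.f_eq t ht)
    · have : 0 ≤ b - t := by linarith [ht.2]
      positivity
    · have := mul_le_mul_of_nonneg_left (show b - t ≤ b - a by linarith [ht.1]) hε.le
      linarith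
  set Λ3 := (1 + ε ^ 2) * Λ1 with hΛ3
  have h3 : 0 ≤ Λ3 := by positivity
  set Λ4 := (1 + ε ^ 2) * Λ2 with hΛ4
  have h4 : 0 ≤ Λ4 := by positivity
  have Ub : ∀ t ∈ Icc a b, TBd C Λ3 (u t) := fun t ht => by
    have := tbd_smul hC hB hΛ1 (nI t ht) (U t ht).1 (-ε)
    rw [neg_sq, smul_neg, neg_smul, neg_neg, smul_smul, mul_inv_cancel₀ hε', one_smul] at this
    exact this
  have Fb : ∀ t ∈ Icc a b, TBd C Λ4 (φ t) := fun t ht => by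
    have := tbd_smul hC hB hΛ2 (pI t ht) (F t ht).1 ε
    rw [smul_smul, mul_inv_cancel₀ hε', one_smul] at this
    exact this
  set Λ5 := 2 * Λ2 + 2 * Λ1 with hΛ5
  have h5 : 0 ≤ Λ5 := by positivity
  have hLI : ∀ t ∈ Icc a b, LL ε φ u t ∈ C.TestI := fun t ht =>
    hC.testI_smul hB _ (hC.testI_sub hB (hp.φ_mem t ht) (hp.u_mem t ht))
  have Lb : ∀ t ∈ Icc a b, TBd C Λ5 (LL ε φ u t) := fun t ht => by
    have := tbd_add hC hB hΛ2 hΛ1 (pI t ht) (nI t ht) (F t ht).1 (U t ht).1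
    rwa [show ε⁻¹ • φ t + -(ε⁻¹ • u t) = LL ε φ u t by
      rw [LL, smul_sub, sub_eq_add_neg]] at this
  set Λ6 := (1 + (2 : ℝ)⁻¹ ^ 2) * (2 * Λ4 + 2 * Λ3) with hΛ6
  have h6 : 0 ≤ Λ6 := by positivity
  have Tb : ∀ t ∈ Icc a b, TBd C Λ6 (th φ u t) := fun t ht =>
    tbd_smul hC hB (by positivity) (hC.testI_add hB (hp.φ_mem t ht) (hp.u_mem t ht))
      (tbd_add hC hB h4 h3 (hp.φ_mem t ht) (hp.u_mem t ht) (Fb t ht) (Ub t ht)) _
  obtain ⟨Λ7, h7, H7⟩ := tbd_ex hC hB h5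
  have Rb : ∀ t ∈ Icc a b, TBd C Λ7 (rh ε φ u t - 1) := fun t ht => H7 _ ⟨hLI t ht, Lb t ht⟩
  refine ⟨Λ1 + Λ2 + Λ3 + Λ4 + Λ5 + Λ6 + Λ7, by positivity, fun t ht => ⟨(Ub t ht).mono ?_,
    (Fb t ht).mono ?_, (F t ht).2.mono ?_, (U t ht).2.mono ?_, (Lb t ht).mono ?_,
    (Tb t ht).mono ?_, (Rb t ht).mono ?_, ?_⟩⟩
  all_goals try linarith
  filter_upwards [(Lb t ht).abs, ex_ae (LL ε φ u t)] with x a1 a2
  have a3 : rh ε φ u t x = Real.exp (LL ε φ u t x) := a2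
  rw [a3]
  have := abs_le.1 a1
  exact ⟨Real.exp_le_exp.2 (by linarith), Real.exp_le_exp.2 (by linarith)⟩

/-- membership in `TestI` of all functions of a pair -/
theorem pair_mem {ε a b : ℝ} {φ u : ℝ → M →ₘ[m] ℝ} (hp : Pair C P ε a b φ u) {t : ℝ}
    (ht : t ∈ Icc a b) : LL ε φ u t ∈ C.TestI ∧ th φ u t ∈ C.TestI ∧ rh ε φ u t - 1 ∈ C.TestI := by
  have hLI : LL ε φ u t ∈ C.TestI :=
    hC.testI_smul hB _ (hC.testI_sub hB (hp.φ_mem t ht) (hp.u_mem t ht))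
  exact ⟨hLI, hC.testI_smul hB _ (hC.testI_add hB (hp.φ_mem t ht) (hp.u_mem t ht)),
    hC.ex_testI hB hLI⟩

end flow

end Vale.Agent.P233.H788
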