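import Vale.Agent.P233.H748.Ex

/-! P233, block A1E (helper788): existence of pairs of level `ε`. -/

set_option linter.all false

open MeasureTheory Filter Topology Set
open scoped ENNReal NNReal

universe u

namespace Vale.Agent.P233.H788

variable {M : Type u} [MeasurableSpace M] {m : Measure M} {C : Calc m}

theorem ex_sub_one_ae (f : M →ₘ[m] ℝ) : ∀ᵐ x ∂m, (ex f - 1 : M →ₘ[m] ℝ) x = Real.exp (f x) - 1 := by
  filter_upwards [sub_ae (ex f) 1, ex_ae f, one_ae (M := M) (m := m)] with x a1 a2 a3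
  rw [a1, a2, a3]

theorem lg_eq_ex {χ f : M →ₘ[m] ℝ} (h : Lg C χ f) : χ = ex f - 1 := by
  rw [eq_iff_ae]
  filter_upwards [ex_sub_one_ae f, h.exp_eq] with x a1 a2
  rw [a1, ← a2]; ring

section static

variable (hC : IsGamma C) {κ : ℝ} (hB : C.BEi κ)
include hC hB

/-- `ex f - 1` is in `TestI` for `f ∈ TestI`, with the chain rules -/
theorem testI_ex {f : M →ₘ[m] ℝ} (hf : f ∈ C.TestI) : ex f - 1 ∈ C.TestI ∧ Lg C (ex f - 1) f := by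
  obtain ⟨χ, hχ⟩ := hC.hc_exp hf.1 (hC.Γ_mem hB hf.1 hf.1).1
  have he := lg_eq_ex hχ
  rw [← he]
  refine ⟨⟨hχ.tχ, ?_⟩, hχ⟩
  rw [hχ.lap]
  exact mem_mul_top (mem_add mem_top_one (hC.test_A hχ.tχ).2)
    (mem_add hf.2 (hC.Γ_mem hB hf.1 hf.1).2)

/-- `log (1 + χ)` is in `TestI` for `χ ∈ TestI`, `χ ≥ c - 1 > -1` -/
theorem testI_lg {χ : M →ₘ[m] ℝ} (hχ : χ ∈ C.TestI) {c : ℝ} (hc : 0 < c)
    (hc1 : c ≤ 1) (hlow : ∀ᵐ x ∂m, c - 1 ≤ χ x) : ∃ f ∈ C.TestI, Lg C χ f ∧ ex f - 1 = χ := by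
  obtain ⟨f, hf⟩ := hC.hc_log hχ.1 (hC.Γ_mem hB hχ.1 hχ.1).1 hc hc1 hlow
  refine ⟨f, ⟨hf.tf, ?_⟩, hf, (lg_eq_ex hf).symm⟩
  obtain ⟨L, hL⟩ := mem_top_iff.1 hχ.2
  obtain ⟨G, hG⟩ := mem_top_iff.1 (hC.Γ_mem hB hf.tf hf.tf).2
  have hlap := hf.lap
  refine mem_top_iff.2 ⟨c⁻¹ * L + G, ?_⟩
  have e1 : ∀ᵐ x ∂m, C.lap χ x = (1 + χ x) * (C.lap f x + C.Γ f f x) := by
    rw [hlap]
    filter_upwards [mul_ae (1 + χ) (C.lap f + C.Γ f f), hc_one_add χ,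
      add_ae (C.lap f) (C.Γ f f)] with x a1 a2 a3
    rw [a1, a2, a3]
  filter_upwards [e1, hL, hG, hlow] with x a1 a2 a3 a4
  have h1 : c ≤ 1 + χ x := by linarith
  have h2 : 0 < 1 + χ x := lt_of_lt_of_le hc h1
  have h3 : C.lap f x = (1 + χ x)⁻¹ * C.lap χ x - C.Γ f f x := by
    rw [a1]; field_simp; ring
  rw [h3]
  have h4 : |(1 + χ x)⁻¹ * C.lap χ x| ≤ c⁻¹ * L := by
    rw [abs_mul, abs_of_pos (inv_pos.2 h2)]
    exact mul_le_mul (inv_anti₀ hc h1) a2 (abs_nonneg _) (inv_pos.2 hc).le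
  calc |(1 + χ x)⁻¹ * C.lap χ x - C.Γ f f x| ≤ |(1 + χ x)⁻¹ * C.lap χ x| + |C.Γ f f x| :=
        abs_sub _ _
    _ ≤ _ := add_le_add h4 a3

end static

section heat

variable {K : ℝ} {P : ℝ → (M →ₘ[m] ℝ) → (M →ₘ[m] ℝ)} (hP : Heat C K P)
include hP

theorem P_neg {t : ℝ} (ht : 0 ≤ t) {f : M →ₘ[m] ℝ} (hf : MemLp f 2 m) : P t (-f) = -P t f := by
  have := hP.smul t ht (-1) f hf
  simpa using this

theorem P_sub {t : ℝ} (ht : 0 ≤ t) {f g : M →ₘ[m] ℝ} (hf : MemLp f 2 m) (hg : MemLp g 2 m) :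
    P t (f - g) = P t f - P t g := by
  rw [sub_eq_add_neg, hP.add t ht _ _ hf (mem_neg hg), P_neg hP ht hg, ← sub_eq_add_neg]

/-- lower bound -/
theorem P_ge {t : ℝ} (ht : 0 ≤ t) {f : M →ₘ[m] ℝ} (hf : MemLp f 2 m) {c : ℝ} (hc : 0 ≤ c)
    (h : ∀ᵐ x ∂m, -c ≤ f x) : ∀ᵐ x ∂m, -c ≤ P t f x := by
  have h1 : ∀ᵐ x ∂m, (-f : M →ₘ[m] ℝ) x ≤ c := by
    filter_upwards [neg_ae f, h] with x a1 a2
    rw [a1]; linarith
  have h2 := hP.le t ht (-f) (mem_neg hf) c hc h1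
  rw [P_neg hP ht hf] at h2
  filter_upwards [neg_ae (P t f), h2] with x a1 a2
  rw [a1] at a2; linarith

theorem P_abs_le {t : ℝ} (ht : 0 ≤ t) {f : M →ₘ[m] ℝ} (hf : MemLp f 2 m) {c : ℝ} (hc : 0 ≤ c)
    (h : ∀ᵐ x ∂m, |f x| ≤ c) : ∀ᵐ x ∂m, |P t f x| ≤ c := by
  filter_upwards [hP.le t ht f hf c hc (by filter_upwards [h] with x hx using (abs_le.1 hx).2),
    P_ge hP ht hf hc (by filter_upwards [h] with x hx using (abs_le.1 hx).1)] with x a1 a2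
  exact abs_le.2 ⟨a2, a1⟩

variable (hC : IsGamma C) {κ : ℝ} (hB : C.BEi κ)
include hC hB

/-- the logarithmic heat flow: `exp (w s) - 1 = P s (exp w0 - 1)` -/
theorem exists_log_flow {w0 : M →ₘ[m] ℝ} (hw0 : w0 ∈ C.TestI) :
    ∃ w : ℝ → M →ₘ[m] ℝ, w 0 = w0 ∧ ∀ s, 0 ≤ s → w s ∈ C.TestI ∧ ex (w s) - 1 ∈ C.TestI ∧
      ex (w s) - 1 = P s (ex w0 - 1) := by
  obtain ⟨hχI, hχ⟩ := testI_ex hC hB hw0
  have hA := hC.test_A hχI.1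
  have h2 : MemLp (ex w0 - 1 : M →ₘ[m] ℝ) 2 m := hC.memLp _ hA.1
  obtain ⟨b, hb⟩ := mem_top_iff.1 (hC.test_A hw0.1).2
  set b' := max b 0 with hb'
  have hb0 : 0 ≤ b' := le_max_right _ _
  have hc0 : 0 < Real.exp (-b') := Real.exp_pos _
  have hc1 : Real.exp (-b') ≤ 1 := Real.exp_le_one_iff.2 (by linarith)
  have hlow : ∀ᵐ x ∂m, -(1 - Real.exp (-b')) ≤ (ex w0 - 1 : M →ₘ[m] ℝ) x := by
    filter_upwards [ex_sub_one_ae w0, hb] with x a1 a2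
    rw [a1]
    have : Real.exp (-b') ≤ Real.exp (w0 x) :=
      Real.exp_le_exp.2 (by linarith [(abs_le.1 a2).1, le_max_left b 0])
    linarith
  have key : ∀ s, 0 ≤ s → ∃ w ∈ C.TestI, ex w - 1 ∈ C.TestI ∧ ex w - 1 = P s (ex w0 - 1) := by
    intro s hs
    have hI := hP.testI s hs _ hχI
    obtain ⟨w, hw, hlg, he⟩ := testI_lg hC hB hI hc0 hc1 (by
      filter_upwards [P_ge hP hs h2 (by linarith) hlow] with x hx
      linarith)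
    exact ⟨w, hw, by rw [he]; exact hI, he⟩
  classical
  refine ⟨fun s => if h : 0 < s then (key s h.le).choose else w0, by simp, fun s hs => ?_⟩
  rcases hs.eq_or_lt with h0 | h0
  · subst h0
    simp only [lt_irrefl, dif_neg, not_false_eq_true]
    exact ⟨hw0, hχI, (hP.zero _ h2).symm⟩
  · simp only [dif_pos h0]
    obtain ⟨a1, a2, a3⟩ := (key s h0.le).choose_spec
    exact ⟨a1, a2, a3⟩

/-- existence of a pair on `[0,1]` with a given initial value `u 0 = a0` and a given final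
log-density `l` -/
theorem exists_pair {ε : ℝ} (hε : 0 < ε) {a0 l : M →ₘ[m] ℝ} (ha : a0 ∈ C.TestI)
    (hl : l ∈ C.TestI) :
    ∃ φ u : ℝ → M →ₘ[m] ℝ, Pair C P ε 0 1 φ u ∧ u 0 = a0 ∧ φ 1 = u 1 + ε • l := by
  have hε' : ε ≠ 0 := hε.ne'
  have e1 : ∀ f : M →ₘ[m] ℝ, ε⁻¹ • (ε • f) = f := fun f => by
    rw [smul_smul, inv_mul_cancel₀ hε', one_smul]
  obtain ⟨w, w0, hw⟩ := exists_log_flow hP hC hB (hC.testI_smul hB (-ε⁻¹) ha)
  set u : ℝ → M →ₘ[m] ℝ := fun t => (-ε) • w (ε * t / 2) with hu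
  have hut : ∀ t, -(ε⁻¹ • u t) = w (ε * t / 2) := fun t => by
    rw [hu]
    simp only [neg_smul, smul_neg, e1, neg_neg]
  have hu0 : u 0 = a0 := by
    simp only [hu, mul_zero, zero_div, w0, smul_smul]
    rw [show -ε * -ε⁻¹ = 1 by field_simp, one_smul]
  have hs : ∀ t ∈ Icc (0 : ℝ) 1, 0 ≤ ε * t / 2 := fun t ht => by
    have := ht.1; positivity
  have hs' : ∀ t ∈ Icc (0 : ℝ) 1, 0 ≤ ε * (1 - t) / 2 := fun t ht => by
    have : 0 ≤ 1 - t := by linarith [ht.2]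
    positivity
  have huI : ∀ t ∈ Icc (0 : ℝ) 1, u t ∈ C.TestI := fun t ht =>
    hC.testI_smul hB _ (hw _ (hs t ht)).1
  have hφ1 : u 1 + ε • l ∈ C.TestI :=
    hC.testI_add hB (huI 1 ⟨by norm_num, le_rfl⟩) (hC.testI_smul hB _ hl)
  obtain ⟨v, v0, hv⟩ := exists_log_flow hP hC hB (hC.testI_smul hB (ε⁻¹) hφ1)
  set φ : ℝ → M →ₘ[m] ℝ := fun t => ε • v (ε * (1 - t) / 2) with hφ
  have hφt : ∀ t, ε⁻¹ • φ t = v (ε * (1 - t) / 2) := fun t => e1 _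
  have hφ1e : φ 1 = u 1 + ε • l := by
    simp only [hφ, sub_self, mul_zero, zero_div, v0, smul_smul]
    rw [mul_inv_cancel₀ hε', one_smul]
  refine ⟨φ, u, ⟨hε, by norm_num, fun t ht => hC.testI_smul hB _ (hv _ (hs' t ht)).1, huI,
    fun t ht => ?_, fun t ht => ?_, fun t ht => ?_, fun t ht => ?_⟩, hu0, hφ1e⟩
  · rw [hφt]; exact (hv _ (hs' t ht)).2.1
  · rw [hut]; exact (hw _ (hs t ht)).2.1
  · rw [hφt, (hv _ (hs' t ht)).2.2, hφ1e]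
  · rw [hut, (hw _ (hs t ht)).2.2, sub_zero, hu0, neg_smul]

/-- existence of the entropic flow of level `ε` -/
theorem exists_fam [SigmaFinite m] {ε : ℝ} (hε : 0 < ε) (hε2 : 0 < 1 + 2 * ε ^ 2 * κ)
    {a l : M →ₘ[m] ℝ} (ha : a ∈ C.A) (ha' : MemLp (C.Γ a a) ∞ m) (hl : l ∈ C.TestI) :
    ∃ φ u : ℝ → M →ₘ[m] ℝ, Fam C P ε a l φ u := by
  have h1 := hC.testI_J hB (pow_pos hε 2) hε2 ha ha'
  have h2 := hC.testI_J hB (pow_pos hε 2) hε2 (hC.test_A h1.1) (hC.test_Γ_top h1.1)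
  obtain ⟨φ, u, hp, hu, hφ⟩ := exists_pair hP hC hB hε h2 hl
  exact ⟨φ, u, hp, hu, hφ⟩

end heat

end Vale.Agent.P233.H788
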