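import Vale.Agent.P233.H788.Bounds

/-! P233 (helper788): sup-norm Lipschitz continuity in time of the heat flow. -/

set_option linter.all false

open MeasureTheory Filter Topology Set
open scoped ENNReal NNReal

universe u

namespace Vale.Agent.P233.H788

variable {M : Type u} [MeasurableSpace M] {m : Measure M} {C : Calc m}

/-- a pointwise bound from integrated bounds, for functions in `L²` -/
theorem le_const_of_forall_two {F : M →ₘ[m] ℝ} (hF : MemLp F 2 m) {K : ℝ} (hK : 0 ≤ K)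
    (h : ∀ ψ : M →ₘ[m] ℝ, 0 ≤ ψ → MemLp ψ 2 m → MemLp ψ 1 m → MemLp ψ ∞ m →
      I (F * ψ) ≤ K * I ψ) : ∀ᵐ x ∂m, F x ≤ K := by
  have hFm : StronglyMeasurable (F : M → ℝ) := AEEqFun.stronglyMeasurable F
  have key : ∀ n : ℕ, m {x | K + ((n : ℝ) + 1)⁻¹ < F x} = 0 := by
    intro n
    set ε : ℝ := ((n : ℝ) + 1)⁻¹ with hε
    have hε0 : 0 < ε := by positivity
    set S : Set M := {x | K + ε < F x} with hS
    have hSm : MeasurableSet S := measurableSet_lt measurable_const hFm.measurable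
    have hSfin : m S < ∞ := by
      have h1 : S ⊆ {x | (⟨ε, hε0.le⟩ : ℝ≥0) ≤ ‖F x‖₊} := by
        intro x hx
        have hx' : K + ε < F x := hx
        show ε ≤ ‖F x‖
        rw [Real.norm_eq_abs]
        exact le_trans (by linarith) (le_abs_self _)
      refine (measure_mono h1).trans_lt (hF.meas_ge_lt_top (by norm_num) (by norm_num) ?_)
      exact fun h0 => hε0.ne' (congrArg NNReal.toReal h0)
    have hFint : IntegrableOn F S m := by
      haveI : IsFiniteMeasure (m.restrict S) := ⟨by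
        rw [Measure.restrict_apply MeasurableSet.univ, univ_inter]; exact hSfin⟩
      exact (hF.restrict S).integrable (by norm_num)
    have hind : ∀ p : ℝ≥0∞, MemLp (S.indicator (fun _ => (1 : ℝ))) p m := fun p =>
      memLp_indicator_const p hSm 1 (Or.inr hSfin.ne)
    set χ : M →ₘ[m] ℝ := AEEqFun.mk _ (hind 2).1 with hχ
    have hχae := AEEqFun.coeFn_mk _ (hind 2).1
    have hχp : ∀ p : ℝ≥0∞, MemLp χ p m := fun p => (memLp_congr_ae hχae).2 (hind p)
    have h1 := h χ (by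
      rw [nonneg_iff_ae]
      filter_upwards [hχae] with x hx
      rw [hχ, hx]
      exact Set.indicator_nonneg (fun _ _ => zero_le_one) x) (hχp 2) (hχp 1) (hχp ∞)
    have h5 : I (F * χ) = ∫ x in S, F x ∂m := by
      rw [← integral_indicator hSm]
      unfold I
      refine integral_congr_ae ?_
      filter_upwards [mul_ae F χ, hχae] with x a1 a2
      rw [a1, hχ, a2]
      by_cases hx : x ∈ S
      · rw [Set.indicator_of_mem hx, Set.indicator_of_mem hx, mul_one]
      · rw [Set.indicator_of_notMem hx, Set.indicator_of_notMem hx, mul_zero]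
    have h6 : I χ = m.real S := by
      unfold I
      rw [integral_congr_ae hχae, integral_indicator hSm, setIntegral_const, smul_eq_mul, mul_one]
    have h7 : ∫ x in S, (K + ε) ∂m ≤ ∫ x in S, F x ∂m := by
      refine setIntegral_mono_on ?_ hFint hSm fun x hx => le_of_lt hx
      exact integrableOn_const (hs := hSfin.ne)
    rw [setIntegral_const, smul_eq_mul] at h7
    rw [h5, h6] at h1
    have h8 : m.real S ≤ 0 := by
      have h9 : 0 ≤ m.real S := measureReal_nonneg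
      by_contra hcon
      push Not at hcon
      linarith only [mul_pos (sub_pos.2 hε0) (sub_pos.2 hcon), h7, h1]
    exact (measureReal_eq_zero_iff hSfin.ne).1 (le_antisymm h8 measureReal_nonneg)
  have h9 : ∀ᵐ x ∂m, ∀ n : ℕ, ¬ (K + ((n : ℝ) + 1)⁻¹ < F x) := by
    rw [ae_all_iff]
    intro n
    exact measure_eq_zero_iff_ae_notMem.1 (key n)
  filter_upwards [h9] with x hx
  by_contra hcon
  push Not at hcon
  obtain ⟨n, hn⟩ := exists_nat_one_div_lt (show (0 : ℝ) < F x - K by linarith)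
  rw [one_div] at hn
  exact hx n (by linarith)

theorem abs_le_const_of_forall_two {F : M →ₘ[m] ℝ} (hF : MemLp F 2 m) {K : ℝ} (hK : 0 ≤ K)
    (h : ∀ ψ : M →ₘ[m] ℝ, 0 ≤ ψ → MemLp ψ 2 m → MemLp ψ 1 m → MemLp ψ ∞ m →
      |I (F * ψ)| ≤ K * I ψ) : ∀ᵐ x ∂m, |F x| ≤ K := by
  have h1 := le_const_of_forall_two hF hK fun ψ a b c d => (le_abs_self _).trans (h ψ a b c d)
  have h2 := le_const_of_forall_two (mem_neg hF) hK fun ψ a b c d => by
    rw [neg_mul, I_neg]; exact (neg_le_abs _).trans (h ψ a b c d)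
  filter_upwards [h1, h2, neg_ae F] with x a1 a2 a3
  rw [a3] at a2
  exact abs_le.2 ⟨by linarith, a1⟩

section heat

variable {K : ℝ} {P : ℝ → (M →ₘ[m] ℝ) → (M →ₘ[m] ℝ)} (hP : Heat C K P) {f h : M →ₘ[m] ℝ}
include hP

/-- `s ↦ ∫ P_s f · ψ` has the derivative `∫ P_s (Δf) · ψ` on `[0,∞)` -/
theorem hasDeriv_I_P (hfh : C.IsLap f h) (hf : MemLp f 2 m) {ψ : M →ₘ[m] ℝ} (hψ : MemLp ψ 2 m)
    {t : ℝ} (ht : 0 ≤ t) :
    HasDerivWithinAt (fun s => I (P s f * ψ)) (I (P t h * ψ)) (Ici 0) t := by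
  have hh : MemLp h 2 m := hfh.2.1
  rw [hasDerivWithinAt_iff_tendsto_slope]
  have h1 := hP.derivD f h hfh t ht
  have h2 : Tendsto (fun s => Real.sqrt (I (((s - t)⁻¹ • (P s f - P t f) - P t h) ^ 2))
      * Real.sqrt (I (ψ ^ 2))) (𝓝[Ici 0 \ {t}] t) (𝓝 0) := by
    have := (Real.continuous_sqrt.tendsto _).comp h1
    rw [Real.sqrt_zero] at this
    simpa using this.mul_const (Real.sqrt (I (ψ ^ 2)))
  rw [tendsto_iff_dist_tendsto_zero]
  refine squeeze_zero' (Eventually.of_forall fun _ => dist_nonneg) ?_ h2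
  filter_upwards [self_mem_nhdsWithin] with s hs
  have hs0 : 0 ≤ s := hs.1
  have ms := hP.mem s hs0 f hf
  have mt := hP.mem t ht f hf
  have mh := hP.mem t ht h hh
  have e1 : _root_.slope (fun s => I (P s f * ψ)) t s - I (P t h * ψ)
      = I (((s - t)⁻¹ • (P s f - P t f) - P t h) * ψ) := by
    rw [sub_mul, I_sub (mem_mul_22 (mem_smul _ (mem_sub ms mt)) hψ) (mem_mul_22 mh hψ),
      smul_mul_assoc, I_smul, sub_mul, I_sub (mem_mul_22 ms hψ) (mem_mul_22 mt hψ)]
    rfl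
  rw [Real.dist_eq, e1]
  exact I_abs_le (mem_sub (mem_smul _ (mem_sub ms mt)) mh) hψ

/-- the heat flow is Lipschitz in time in the sup norm -/
theorem P_lip_sup (hfh : C.IsLap f h) (hf : MemLp f 2 m) {L : ℝ} (hL0 : 0 ≤ L)
    (hL : ∀ᵐ x ∂m, |h x| ≤ L) {s t : ℝ} (hs : 0 ≤ s) (ht : 0 ≤ t) :
    ∀ᵐ x ∂m, |(P s f - P t f : M →ₘ[m] ℝ) x| ≤ L * |s - t| := by
  have hh : MemLp h 2 m := hfh.2.1
  refine abs_le_const_of_forall_two (mem_sub (hP.mem s hs f hf) (hP.mem t ht f hf))
    (by positivity) fun ψ h0 h2 h1 _ => ?_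
  have hb : ∀ r ∈ Ici (0 : ℝ), ‖I (P r h * ψ)‖ ≤ L * I ψ := by
    intro r hr
    have hPr := P_abs_le hP hr hh hL0 hL
    have m1 := mem_mul_22 (hP.mem r hr h hh) h2
    rw [Real.norm_eq_abs]
    refine abs_le.2 ⟨?_, ?_⟩
    · have : I (-(P r h * ψ)) ≤ L * I ψ := by
        refine I_le_of_ae (mem_neg m1) h1 ?_
        filter_upwards [neg_ae (P r h * ψ), mul_ae (P r h) ψ, hPr, nonneg_iff_ae.1 h0]
          with x a1 a2 a3 a4
        rw [a1, a2, ← neg_mul]
        exact mul_le_mul_of_nonneg_right (by linarith [(abs_le.1 a3).1]) a4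
      rw [I_neg] at this; linarith
    · refine I_le_of_ae m1 h1 ?_
      filter_upwards [mul_ae (P r h) ψ, hPr, nonneg_iff_ae.1 h0] with x a2 a3 a4
      rw [a2]
      exact mul_le_mul_of_nonneg_right (abs_le.1 a3).2 a4
  have h3 := Convex.norm_image_sub_le_of_norm_hasDerivWithin_le
    (f := fun s => I (P s f * ψ)) (f' := fun r => I (P r h * ψ)) (s := Ici (0 : ℝ))
    (fun r hr => hasDeriv_I_P hP hfh hf h2 hr) hb (convex_Ici 0) (mem_Ici.2 ht) (mem_Ici.2 hs)
  rw [Real.norm_eq_abs, Real.norm_eq_abs] at h3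
  rw [sub_mul, I_sub (mem_mul_22 (hP.mem s hs f hf) h2) (mem_mul_22 (hP.mem t ht f hf) h2)]
  refine h3.trans (le_of_eq (by ring))

end heat

end Vale.Agent.P233.H788
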